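import Vale.Agent.P037G.Sym

open Finset

namespace Vale.Agent.Results.P037.AllTwoByTwo

open scoped Classical in
/-- The number of ordered copies of the `k × k` pattern `H` in the `n × n` matrix `A`: pairs of
strictly increasing index maps, one for the rows and one for the columns, that match all entries. -/
noncomputable def copies {k n : ℕ} (H : Fin k → Fin k → Bool) (A : Fin n → Fin n → Bool) : ℕ :=
  ((univ : Finset ((Fin k → Fin n) × (Fin k → Fin n))).filter (fun p =>
    StrictMono p.1 ∧ StrictMono p.2 ∧ ∀ i j, A (p.1 i) (p.2 j) = H i j)).card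

open scoped Classical in
/-- The number of positions where two `n × n` matrices differ. -/
noncomputable def entryDiff {n : ℕ} (A B : Fin n → Fin n → Bool) : ℕ :=
  ((univ : Finset (Fin n × Fin n)).filter (fun e => A e.1 e.2 ≠ B e.1 e.2)).card

end Vale.Agent.Results.P037.AllTwoByTwo

open Vale.Agent.Results.P037.AllTwoByTwo in
/-- Polynomial removal for every `2 × 2` binary pattern: if every matrix free of the pattern differs
from `A` in at least `ε n ^ 2` positions then `A` contains at least `ε ^ 28 n ^ 4 / 10 ^ 31` ordered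
copies of the pattern. -/
theorem Vale.Agent.Results.P037.AllTwoByTwo.result (H : Fin 2 → Fin 2 → Bool) (n : ℕ)
    (A : Fin n → Fin n → Bool) (ε : ℝ) (h0 : 0 < ε) (h1 : ε < 1)
    (hfar : ∀ B : Fin n → Fin n → Bool, copies H B = 0 → ε * (n : ℝ) ^ 2 ≤ (entryDiff A B : ℝ)) :
    ε ^ 28 * (n : ℝ) ^ 4 / 10 ^ 31 ≤ (copies H A : ℝ) :=
  P037Sym.main H n A ε h0 h1 hfar
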