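import Vale.Agent.P037G.Sym
import Vale.Agent.Lib.P037.BlowE

open Finset

namespace Vale.Agent.Results.P037.BlockPatterns

open scoped Classical in
/-- The number of ordered copies of the `k × k` pattern `H` in the `n × n` matrix `A`: pairs of
strictly increasing index maps, one for the rows and one for the columns, that match all entries. -/
noncomputable def copies {k n : ℕ} (H : Fin k → Fin k → Bool) (A : Fin n → Fin n → Bool) : ℕ :=
  ((univ : Finset ((Fin k → Fin n) × (Fin k → Fin n))).filter (fun p =>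
    StrictMono p.1 ∧ StrictMono p.2 ∧ ∀ i j, A (p.1 i) (p.2 j) = H i j)).card

open scoped Classical in
/-- The number of positions where two `n × n` matrices differ. -/
noncomputable def entryDiff {n : ℕ} (A B : Fin n → Fin n → Bool) : ℕ :=
  ((univ : Finset (Fin n × Fin n)).filter (fun e => A e.1 e.2 ≠ B e.1 e.2)).card

/-- The `k × k` block pattern with block sizes `a, k - a` (rows) and `b, k - b` (columns), the four
blocks being constant with the values of the `2 × 2` pattern `h`. -/
def blockPattern (k a b : ℕ) (h : Fin 2 → Fin 2 → Bool) (i j : Fin k) : Bool :=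
  h (if i.val < a then 0 else 1) (if j.val < b then 0 else 1)

end Vale.Agent.Results.P037.BlockPatterns

open Vale.Agent.Results.P037.BlockPatterns in
/-- Polynomial removal for every `k × k` block pattern with two row blocks and two column blocks.
If every matrix free of the pattern differs from `A` in at least `ε n ^ 2` positions then `A`
contains at least `c ε ^ C n ^ (2 k)` ordered copies of the pattern. -/
theorem Vale.Agent.Results.P037.BlockPatterns.result (k a b : ℕ) (ha : 0 < a) (ha' : a < k)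
    (hb : 0 < b) (hb' : b < k) (h : Fin 2 → Fin 2 → Bool) :
    ∃ (c : ℝ) (C : ℕ), 0 < c ∧ 0 < C ∧ ∀ (n : ℕ) (A : Fin n → Fin n → Bool) (ε : ℝ),
      0 < ε → ε < 1 →
      (∀ B : Fin n → Fin n → Bool, copies (blockPattern k a b h) B = 0 →
        ε * (n : ℝ) ^ 2 ≤ (entryDiff A B : ℝ)) →
      c * ε ^ C * (n : ℝ) ^ (2 * k) ≤ (copies (blockPattern k a b h) A : ℝ) := by
  obtain ⟨m₁, rfl⟩ : ∃ m, a = m + 1 := ⟨a - 1, by omega⟩
  obtain ⟨m₃, rfl⟩ : ∃ m, b = m + 1 := ⟨b - 1, by omega⟩
  obtain ⟨m₂, h₁⟩ : ∃ m, m₁ + 1 + (m + 1) = k := ⟨k - (m₁ + 1) - 1, by omega⟩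
  obtain ⟨m₄, h₂⟩ : ∃ m, m₃ + 1 + (m + 1) = k := ⟨k - (m₃ + 1) - 1, by omega⟩
  exact P037Blow.main_bound k m₁ m₂ m₃ m₄ h₁ h₂ h (fun n A ε h0 h1 hfar =>
    P037Sym.main h n A ε h0 h1 hfar)
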