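import Vale.Agent.P037.Main

open Finset

namespace Vale.Agent.Results.P037.DiagonalRemoval

open scoped Classical in
/-- The number of ordered copies of the `k × k` pattern `H` in the `n × n` matrix `A`: pairs of
strictly increasing index maps, one for the rows and one for the columns, that match all entries. -/
noncomputable def copies {k n : ℕ} (H : Fin k → Fin k → Bool) (A : Fin n → Fin n → Bool) : ℕ :=
  ((univ : Finset ((Fin k → Fin n) × (Fin k → Fin n))).filter (fun p =>
    StrictMono p.1 ∧ StrictMono p.2 ∧ ∀ i j, A (p.1 i) (p.2 j) = H i j)).card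

open scoped Classical in
/-- The number of positions where two `n × n` matrices differ. -/
noncomputable def entryDiff {n : ℕ} (A B : Fin n → Fin n → Bool) : ℕ :=
  ((univ : Finset (Fin n × Fin n)).filter (fun e => A e.1 e.2 ≠ B e.1 e.2)).card

/-- The `2 × 2` pattern with ones on the diagonal and zeros off it. -/
def diagPattern : Fin 2 → Fin 2 → Bool := fun i j => decide (i = j)

/-- The `2 × 2` pattern with zeros on the diagonal and ones off it. -/
def antiDiagPattern : Fin 2 → Fin 2 → Bool := fun i j => decide (i ≠ j)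

theorem copies_zero_of_free {n : ℕ} (B : Fin n → Fin n → Bool)
    (hB : ∀ r1 r2 c1 c2, r1 < r2 → c1 < c2 →
      ¬ (B r1 c1 = true ∧ B r1 c2 = false ∧ B r2 c1 = false ∧ B r2 c2 = true)) :
    copies diagPattern B = 0 := by
  classical
  unfold copies
  rw [Finset.card_eq_zero, Finset.filter_eq_empty_iff]
  rintro ⟨r, c⟩ - ⟨hr, hc, h⟩
  have h00 := h 0 0
  have h01 := h 0 1
  have h10 := h 1 0
  have h11 := h 1 1
  simp only [diagPattern] at h00 h01 h10 h11
  refine hB (r 0) (r 1) (c 0) (c 1) (hr (by decide)) (hc (by decide)) ⟨?_, ?_, ?_, ?_⟩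
  · simpa using h00
  · simpa using h01
  · simpa using h10
  · simpa using h11

theorem NN_le_copies {n : ℕ} (A : Fin n → Fin n → Bool) :
    P037Diag.NN A ≤ copies diagPattern A := by
  classical
  unfold P037Diag.NN copies P037Diag.M
  set Q := (univ : Finset ((Fin 2 → Fin n) × (Fin 2 → Fin n))).filter (fun p =>
    StrictMono p.1 ∧ StrictMono p.2 ∧ ∀ i j, A (p.1 i) (p.2 j) = diagPattern i j) with hQ
  set F : Fin n → Fin n → Finset (Fin n × Fin n) := fun c' c =>
    (univ : Finset (Fin n × Fin n)).filter (fun p => p.1 < p.2 ∧ c' < c ∧ A p.1 c' = true ∧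
      A p.2 c' = false ∧ A p.1 c = false ∧ A p.2 c = true) with hF
  set g : Fin n × Fin n × (Fin n × Fin n) → (Fin 2 → Fin n) × (Fin 2 → Fin n) :=
    fun q => (![q.2.2.1, q.2.2.2], ![q.1, q.2.1]) with hg
  have hsum : ∑ c', ∑ c, (F c' c).card =
      (((univ : Finset (Fin n)).sigma (fun c' => (univ : Finset (Fin n)).sigma
        (fun c => F c' c))).card) := by
    rw [Finset.card_sigma]
    apply Finset.sum_congr rfl
    intro c' _
    rw [Finset.card_sigma]
  rw [hsum]
  apply Finset.card_le_card_of_injOn
    (fun q => ((![q.2.2.1, q.2.2.2], ![q.1, q.2.1]) : (Fin 2 → Fin n) × (Fin 2 → Fin n)))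
  · rintro ⟨c', c, p⟩ hq
    simp only [coe_sigma, Set.mem_sigma_iff, mem_coe, mem_univ, true_and, hF, mem_filter] at hq
    obtain ⟨h1, h2, h3, h4, h5, h6⟩ := hq
    simp only [hQ, coe_filter, mem_univ, true_and, Set.mem_setOf_eq]
    refine ⟨?_, ?_, ?_⟩
    · intro i j hij
      fin_cases i <;> fin_cases j <;> simp_all
    · intro i j hij
      fin_cases i <;> fin_cases j <;> simp_all
    · intro i j
      fin_cases i <;> fin_cases j <;> simp_all [diagPattern]
  · rintro ⟨c1, c2, p⟩ _ ⟨d1, d2, q⟩ _ h
    simp only [Prod.mk.injEq] at h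
    obtain ⟨h1, h2⟩ := h
    have e1 := congrFun h1 0
    have e2 := congrFun h1 1
    have e3 := congrFun h2 0
    have e4 := congrFun h2 1
    simp at e1 e2 e3 e4
    subst e3
    subst e4
    have : p = q := Prod.ext e1 e2
    subst this
    rfl

theorem diag_case (n : ℕ) (A : Fin n → Fin n → Bool) (ε : ℝ) (h0 : 0 < ε) (h1 : ε < 1)
    (hfar : ∀ B : Fin n → Fin n → Bool, copies diagPattern B = 0 →
      ε * (n : ℝ) ^ 2 ≤ (entryDiff A B : ℝ)) :
    ε ^ 10 * (n : ℝ) ^ 4 / 600000000 ≤ (copies diagPattern A : ℝ) := by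
  classical
  have h2 := P037Diag.main A ε h0 h1 (fun B hB => by
    have := hfar B (copies_zero_of_free B hB)
    unfold entryDiff at this
    convert this)
  refine h2.trans ?_
  exact_mod_cast NN_le_copies A

theorem copies_compl {n : ℕ} (A : Fin n → Fin n → Bool) :
    copies antiDiagPattern A = copies diagPattern (fun r c => !(A r c)) := by
  classical
  unfold copies
  congr 1
  ext p
  simp only [mem_filter, mem_univ, true_and]
  refine and_congr_right fun _ => and_congr_right fun _ => forall_congr' fun i => forall_congr' fun j => ?_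
  cases h : A (p.1 i) (p.2 j) <;> by_cases hij : i = j <;> simp [antiDiagPattern, diagPattern, hij]

theorem entryDiff_compl {n : ℕ} (A B : Fin n → Fin n → Bool) :
    entryDiff (fun r c => !(A r c)) (fun r c => !(B r c)) = entryDiff A B := by
  classical
  unfold entryDiff
  congr 1
  ext e
  simp only [mem_filter, mem_univ, true_and, ne_eq]
  cases A e.1 e.2 <;> cases B e.1 e.2 <;> simp

end Vale.Agent.Results.P037.DiagonalRemoval

open Vale.Agent.Results.P037.DiagonalRemoval in
/-- Polynomial removal for the two `2 × 2` patterns `[[1,0],[0,1]]` and `[[0,1],[1,0]]`: if every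
matrix free of the pattern differs from `A` in at least `ε n ^ 2` positions then `A` contains at least
`ε ^ 10 n ^ 4 / 600000000` ordered copies of the pattern. -/
theorem Vale.Agent.Results.P037.DiagonalRemoval.result (H : Fin 2 → Fin 2 → Bool)
    (hH : H = diagPattern ∨ H = antiDiagPattern) (n : ℕ) (A : Fin n → Fin n → Bool) (ε : ℝ)
    (h0 : 0 < ε) (h1 : ε < 1)
    (hfar : ∀ B : Fin n → Fin n → Bool, copies H B = 0 → ε * (n : ℝ) ^ 2 ≤ (entryDiff A B : ℝ)) :
    ε ^ 10 * (n : ℝ) ^ 4 / 600000000 ≤ (copies H A : ℝ) := by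
  rcases hH with rfl | rfl
  · exact diag_case n A ε h0 h1 hfar
  · rw [copies_compl]
    apply diag_case n _ ε h0 h1
    intro B hB
    have h2 := hfar (fun r c => !(B r c)) (by
      rw [copies_compl]
      simpa using hB)
    rw [← entryDiff_compl A (fun r c => !(B r c))] at h2
    simpa using h2
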