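import Vale.Agent.Lib.P037.Base2

/-!
Polynomial removal for the eight `2 × 2` binary patterns with an even number of ones.
-/

namespace Vale.Agent.Results.P037.EvenPatterns

open Finset Vale.Agent.Lib.P037

/-- The ordered copies of the `k × k` pattern `H` in the `n × n` matrix `A`: pairs of strictly
increasing index maps along which `A` equals `H`, zeros matched as well as ones. -/
def copies {k n : ℕ} (H : Fin k → Fin k → Bool) (A : Fin n → Fin n → Bool) :
    Finset ((Fin k → Fin n) × (Fin k → Fin n)) :=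
  univ.filter fun p => StrictMono p.1 ∧ StrictMono p.2 ∧ ∀ i j, A (p.1 i) (p.2 j) = H i j

/-- The number of entries in which two matrices differ. -/
def diff {n : ℕ} (A B : Fin n → Fin n → Bool) : ℕ :=
  (univ.filter fun p : Fin n × Fin n => A p.1 p.2 ≠ B p.1 p.2).card

lemma diff_eq_ham {n : ℕ} (A B : Fin n → Fin n → Bool) : diff A B = ham A B := by
  unfold diff ham
  simp only [Finset.card_filter]
  rw [Fintype.sum_prod_type]

lemma strictMono_two {n : ℕ} (r : Fin 2 → Fin n) : StrictMono r ↔ r 0 < r 1 := by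
  constructor
  · intro h
    exact h (by decide)
  · intro h a b hab
    fin_cases a <;> fin_cases b <;> simp_all

lemma mem_copies_iff {n : ℕ} (H : Fin 2 → Fin 2 → Bool) (A : Fin n → Fin n → Bool)
    (p : (Fin 2 → Fin n) × (Fin 2 → Fin n)) :
    p ∈ copies H A ↔ p.1 0 < p.1 1 ∧ p.2 0 < p.2 1 ∧
      QPat (H 0 0, H 0 1, H 1 0, H 1 1) A (p.1 0) (p.1 1) (p.2 0) (p.2 1) := by
  simp only [copies, mem_filter, mem_univ, true_and, strictMono_two, QPat, Fin.forall_fin_two]
  tauto

lemma card_copies {n : ℕ} (H : Fin 2 → Fin 2 → Bool) (A : Fin n → Fin n → Bool) :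
    (copies H A).card = NH (H 0 0, H 0 1, H 1 0, H 1 1) A := by
  classical
  have h1 : NH (H 0 0, H 0 1, H 1 0, H 1 1) A
      = ((ipairs n ×ˢ ipairs n).filter fun x =>
          QPat (H 0 0, H 0 1, H 1 0, H 1 1) A x.1.1 x.1.2 x.2.1 x.2.2).card := by
    unfold NH
    rw [Finset.card_filter, Finset.sum_product]
  rw [h1]
  refine Finset.card_nbij' (fun p => ((p.1 0, p.1 1), (p.2 0, p.2 1)))
    (fun x => (![x.1.1, x.1.2], ![x.2.1, x.2.2])) ?_ ?_ ?_ ?_
  · intro p hp
    rw [mem_coe, mem_copies_iff] at hp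
    simp only [coe_filter, mem_product, ipairs, mem_filter, mem_univ, true_and]
    exact ⟨⟨hp.1, hp.2.1⟩, hp.2.2⟩
  · intro x hx
    simp only [coe_filter, mem_product, ipairs, mem_filter, mem_univ, true_and,
      Set.mem_ofPred_eq] at hx
    rw [mem_coe, mem_copies_iff]
    simpa using ⟨hx.1.1, hx.1.2, hx.2⟩
  · intro p _
    ext i <;> fin_cases i <;> rfl
  · intro x _
    rfl

lemma free_of_freeH {n : ℕ} (H : Fin 2 → Fin 2 → Bool) (B : Fin n → Fin n → Bool)
    (hB : FreeH (H 0 0, H 0 1, H 1 0, H 1 1) B) : (copies H B).card = 0 := by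
  rw [Finset.card_eq_zero, Finset.eq_empty_iff_forall_notMem]
  intro p hp
  rw [mem_copies_iff] at hp
  exact hB _ _ _ _ hp.1 hp.2.1 hp.2.2

/-- The removal statement for each of the eight even patterns. -/
lemma RemH_even : ∀ a b c d : Bool, (a ^^ b ^^ c ^^ d) = false → RemH (a, b, c, d) := by
  intro a b c d h
  cases a <;> cases b <;> cases c <;> cases d <;> simp at h
  · exact RemH_zero
  · exact RemH_tr (RemH_revC (RemH_tr (RemH_top)))
  · exact RemH_revC (RemH_tr RemH_top)
  · exact RemH_revC RemH_diag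
  · exact RemH_diag
  · exact RemH_tr RemH_top
  · exact RemH_top
  · exact RemH_compl RemH_zero

lemma even_xor (H : Fin 2 → Fin 2 → Bool)
    (hH : Even (univ.filter fun p : Fin 2 × Fin 2 => H p.1 p.2 = true).card) :
    (H 0 0 ^^ H 0 1 ^^ H 1 0 ^^ H 1 1) = false := by
  have h1 : (univ.filter fun p : Fin 2 × Fin 2 => H p.1 p.2 = true).card
      = (H 0 0).toNat + (H 0 1).toNat + (H 1 0).toNat + (H 1 1).toNat := by
    rw [Finset.card_filter, Fintype.sum_prod_type]
    simp only [Fin.sum_univ_two]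
    cases H 0 0 <;> cases H 0 1 <;> cases H 1 0 <;> cases H 1 1 <;> rfl
  rw [h1] at hH
  revert hH
  cases H 0 0 <;> cases H 0 1 <;> cases H 1 0 <;> cases H 1 1 <;> decide

/-- **Polynomial removal for the eight even `2 × 2` patterns.** If the `2 × 2` binary pattern `H`
has an even number of ones, then there are constants `c, C > 0` such that for all `n ≥ 1`, all
`0 < ε < 1` and all binary `n × n` matrices `A` that are `ε`-far from `H`-freeness (every `H`-free
matrix differs from `A` in at least `ε n²` entries), `A` has at least `c ε^C n⁴` ordered copies. -/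
theorem result (H : Fin 2 → Fin 2 → Bool)
    (hH : Even (univ.filter fun p : Fin 2 × Fin 2 => H p.1 p.2 = true).card) :
    ∃ c C : ℝ, 0 < c ∧ 0 < C ∧ ∀ n : ℕ, 1 ≤ n → ∀ ε : ℝ, 0 < ε → ε < 1 →
      ∀ A : Fin n → Fin n → Bool,
        (∀ B : Fin n → Fin n → Bool, (copies H B).card = 0 → ε * (n : ℝ) ^ 2 ≤ diff A B) →
          c * ε ^ C * (n : ℝ) ^ 4 ≤ (copies H A).card := by
  obtain ⟨c, C, hc, hC, hR⟩ := RemH_even _ _ _ _ (even_xor H hH)
  refine ⟨c, C, hc, hC, fun n hn ε hε hε1 A hfar => ?_⟩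
  rw [card_copies]
  refine hR n hn ε hε hε1 A fun B hB => ?_
  rw [← diff_eq_ham]
  exact hfar B (free_of_freeH H B hB)

end Vale.Agent.Results.P037.EvenPatterns
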